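import Vale.Agent.P243.Main5

/-!
# P243: the directionwise relative area of a cylinder covering can be close to five twelfths

The tetrahedron with vertices `(±1, 0, 0)`, `(0, ±1, 1)` is covered by thin blades along segments
joining two opposite edges together with slab shaped cylinders with horizontal axes, with total
directionwise relative area arbitrarily close to `5 / 12`.
-/

namespace Vale.Agent.Results.P243.FiveTwelfths

open Vale.Agent.P243

/-- The conjecture of Bezdek and Khan fails in dimension three, and `r3 ≤ 5 / 12`. -/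
theorem result :
    (¬ ∀ K : Set E3, IsConvexBody K → ∀ (m : ℕ) (C : Fin m → Cyl), Covers C K →
      1 / 2 ≤ relArea C K) ∧
    (∃ K : Set E3, IsConvexBody K ∧ ∀ δ : ℝ, 0 < δ → ∃ (m : ℕ) (C : Fin m → Cyl),
      Covers C K ∧ relArea C K < 5 / 12 + δ) ∧
    r3 ≤ 5 / 12 := by
  have key : ∀ δ : ℝ, 0 < δ → ∃ (m : ℕ) (C : Fin m → Cyl),
      Covers C tetra ∧ relArea C tetra < 5 / 12 + δ := by
    intro δ hδ
    obtain ⟨n, hn⟩ := exists_nat_gt (80 / δ)
    have hn0 : (0 : ℝ) < n := lt_trans (by positivity) hn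
    obtain ⟨m, C, hC, hr⟩ := exists_covering5 n (by exact_mod_cast hn0)
    refine ⟨m, C, hC, lt_of_le_of_lt hr ?_⟩
    have : 80 / (n : ℝ) < δ := by
      rw [div_lt_iff₀ hn0]
      rw [div_lt_iff₀ hδ] at hn
      linarith
    linarith
  refine ⟨?_, ⟨tetra, tetra_body, key⟩, ?_⟩
  · intro h
    obtain ⟨m, C, hC, hr⟩ := key (1 / 12) (by norm_num)
    have := h tetra tetra_body m C hC
    linarith
  · apply le_of_forall_pos_lt_add
    intro δ hδ
    obtain ⟨m, C, hC, hr⟩ := key δ hδ
    refine lt_of_le_of_lt (csInf_le ⟨0, ?_⟩ ⟨tetra, tetra_body, m, C, hC, rfl⟩) hr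
    rintro r ⟨K, _, m, C, _, rfl⟩
    exact Finset.sum_nonneg fun i _ => div_nonneg ENNReal.toReal_nonneg ENNReal.toReal_nonneg

end Vale.Agent.Results.P243.FiveTwelfths
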